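import Vale.Agent.P256.GMain2

namespace Vale.Agent.Results.P256.Closure
open Matrix Vale.Agent.P256

theorem result {k n r l : ℕ} (q : MvPolynomial (Fin l) ℝ) (f : Fin l → ℝ) (H : Hyperbolic q f)
    (hd : 0 < q.totalDegree) (hS : IsShadow (cone q f))
    (A : Fin k → Matrix (Fin (n + 1)) (Fin (n + 1)) ℝ) (C : Fin k → Fin l → ℝ)
    (B : Fin k → Matrix (Fin r) (Fin (n + 1)) ℝ)
    (hA : ∀ i, (A i).IsSymm) (e : Fin k → ℝ)
    (heA : ∑ i, e i • A i = 1) (heC : ∑ i, e i • C i = f) (heB : ∑ i, e i • B i = 0)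
    (Φ : Matrix (Fin r) (Fin r) ℝ →ₗ[ℝ] (Fin l → ℝ))
    (hpos : ∀ W : Matrix (Fin r) (Fin r) ℝ, W.PosSemidef → Φ W ∈ cone q f) :
    ∃ p : MvPolynomial (Fin k) ℝ,
      (∀ x : Fin k → ℝ, MvPolynomial.eval x p =
        MvPolynomial.eval ((∑ i, x i • A i).det • (∑ i, x i • C i) -
          Φ ((∑ i, x i • B i) * (∑ i, x i • A i).adjugate * (∑ i, x i • B i)ᵀ)) q) ∧
      Hyperbolic p e ∧ IsShadow (cone p e) :=
  gmain2 q f H hd hS A C B hA e heA heC heB Φ hpos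

end Vale.Agent.Results.P256.Closure
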