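import Vale.Agent.P256.Main

namespace Vale.Agent.Results.P256.PositiveMap
open Matrix Vale.Agent.P256

theorem result {k n r m : ℕ} (A : Fin k → Matrix (Fin (n + 1)) (Fin (n + 1)) ℝ)
    (C : Fin k → Matrix (Fin (m + 1)) (Fin (m + 1)) ℝ)
    (B : Fin k → Matrix (Fin r) (Fin (n + 1)) ℝ)
    (hA : ∀ i, (A i).IsSymm) (hC : ∀ i, (C i).IsSymm) (e : Fin k → ℝ)
    (heA : ∑ i, e i • A i = 1) (heC : ∑ i, e i • C i = 1) (heB : ∑ i, e i • B i = 0)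
    (Φ : Matrix (Fin r) (Fin r) ℝ →ₗ[ℝ] Matrix (Fin (m + 1)) (Fin (m + 1)) ℝ)
    (hpos : ∀ W : Matrix (Fin r) (Fin r) ℝ, W.PosSemidef → (Φ W).PosSemidef) (c : ℝ)
    (hc : ∀ W : Matrix (Fin r) (Fin r) ℝ, W.PosSemidef → W.trace ≤ c * (Φ W).trace) :
    ∃ p : MvPolynomial (Fin k) ℝ,
      (∀ x : Fin k → ℝ, MvPolynomial.eval x p =
        ((∑ i, x i • A i).det • (∑ i, x i • C i) -
          Φ ((∑ i, x i • B i) * (∑ i, x i • A i).adjugate * (∑ i, x i • B i)ᵀ)).det) ∧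
      Hyperbolic p e ∧ IsShadow (cone p e) :=
  main A C B hA hC e heA heC heB Φ hpos c hc

end Vale.Agent.Results.P256.PositiveMap
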